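import Vale.Agent.Lib.P130.Defs

namespace Vale.Agent.Lib.P130

open MeasureTheory Filter Topology
open scoped ENNReal

/-- A nonzero finite measure that is absolutely continuous with respect to an atomless finite
measure cannot take only the two values `0` and `ν univ`. -/
theorem no_two_valued {X : Type*} [MeasurableSpace X] {μ ν : Measure X} [IsFiniteMeasure μ]
    [IsFiniteMeasure ν] (hμ : Atomless μ) (hac : ν ≪ μ) (hν : ν Set.univ ≠ 0)
    (h2 : ∀ D : Set X, MeasurableSet D → ν D = 0 ∨ ν D = ν Set.univ) : False := by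
  obtain ⟨a, ha⟩ : ∃ a : ℝ≥0∞,
      a = ⨅ D : {D : Set X // MeasurableSet D ∧ ν D = ν Set.univ}, μ D.1 := ⟨_, rfl⟩
  have ha_le : ∀ D : Set X, MeasurableSet D → ν D = ν Set.univ → a ≤ μ D := by
    intro D hD hDν
    rw [ha]
    exact iInf_le_of_le ⟨D, hD, hDν⟩ le_rfl
  have ha_top : a ≠ ∞ :=
    ne_top_of_le_ne_top (measure_ne_top μ Set.univ) (ha_le Set.univ MeasurableSet.univ rfl)
  have hseq : ∀ n : ℕ, ∃ D : Set X, MeasurableSet D ∧ ν D = ν Set.univ ∧
      μ D < a + (n : ℝ≥0∞)⁻¹ := by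
    intro n
    have hlt : a < a + (n : ℝ≥0∞)⁻¹ :=
      ENNReal.lt_add_right ha_top (ENNReal.inv_ne_zero.2 (ENNReal.natCast_ne_top n))
    rw [ha] at hlt
    obtain ⟨⟨D, hD, hDν⟩, hDlt⟩ := iInf_lt_iff.1 hlt
    exact ⟨D, hD, hDν, by rw [ha]; exact hDlt⟩
  choose D hDm hDν hDlt using hseq
  have hBm : MeasurableSet (⋂ n, D n) := MeasurableSet.iInter hDm
  have hBc : ν (⋂ n, D n)ᶜ = 0 := by
    rw [Set.compl_iInter]
    apply measure_iUnion_null
    intro n
    rw [measure_compl (hDm n) (measure_ne_top ν _), hDν n, tsub_self]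
  have hBν : ν (⋂ n, D n) = ν Set.univ := by
    have := measure_add_measure_compl (μ := ν) hBm
    rw [hBc, add_zero] at this
    exact this
  have hBa : μ (⋂ n, D n) = a := by
    apply le_antisymm _ (ha_le _ hBm hBν)
    have htend : Tendsto (fun n : ℕ => a + (n : ℝ≥0∞)⁻¹) atTop (𝓝 (a + 0)) :=
      tendsto_const_nhds.add ENNReal.tendsto_inv_nat_nhds_zero
    rw [add_zero] at htend
    refine ge_of_tendsto' htend fun n => ?_
    exact (measure_mono (Set.iInter_subset D n)).trans (hDlt n).le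
  have hBpos : 0 < μ (⋂ n, D n) := by
    rw [pos_iff_ne_zero]
    intro h
    have := hac h
    rw [hBν] at this
    exact hν this
  obtain ⟨B', hB'sub, hB'm, hB'pos, hB'lt⟩ := hμ _ hBm hBpos
  rcases h2 B' hB'm with h | h
  · have hdiff : ν ((⋂ n, D n) \ B') = ν Set.univ := by
      rw [measure_sdiff hB'sub hB'm.nullMeasurableSet (measure_ne_top ν _), hBν, h, tsub_zero]
    have h1 := ha_le _ (hBm.diff hB'm) hdiff
    have h2' : μ ((⋂ n, D n) \ B') < μ (⋂ n, D n) := by
      rw [measure_sdiff hB'sub hB'm.nullMeasurableSet (measure_ne_top μ _)]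
      exact ENNReal.sub_lt_self (measure_ne_top μ _) hBpos.ne' hB'pos.ne'
    rw [hBa] at h2'
    exact absurd h1 (not_le.2 h2')
  · have h1 := ha_le B' hB'm h
    rw [hBa] at hB'lt
    exact absurd h1 (not_le.2 hB'lt)

end Vale.Agent.Lib.P130
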