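import Mathlib

namespace Vale.Agent.Lib.P130

open MeasureTheory

/-- A measure `μ` is *atomless* (nonatomic): every measurable set of positive measure contains
a measurable subset of strictly smaller positive measure. -/
def Atomless {X : Type*} [MeasurableSpace X] (μ : Measure X) : Prop :=
  ∀ A : Set X, MeasurableSet A → 0 < μ A →
    ∃ B : Set X, B ⊆ A ∧ MeasurableSet B ∧ 0 < μ B ∧ μ B < μ A

end Vale.Agent.Lib.P130
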