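import Vale.Agent.Lib.P130.Atom

namespace Vale.Agent.Lib.P130

open MeasureTheory Filter Topology ComplexConjugate
open scoped ENNReal

variable {X : Type*} [MeasurableSpace X] {μ : Measure X}

theorem inner_toLp (g h : X → ℂ) (hg : MemLp g 2 μ) (hh : MemLp h 2 μ) :
    inner ℂ (hg.toLp g) (hh.toLp h) = ∫ x, conj (g x) * h x ∂μ := by
  rw [L2.inner_def]
  apply integral_congr_ae
  filter_upwards [hg.coeFn_toLp, hh.coeFn_toLp] with x h1 h2
  rw [h1, h2]
  simp [RCLike.inner_apply, mul_comm]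

theorem integrable_mul_conj {g h : X → ℂ} (hg : MemLp g 2 μ) (hh : MemLp h 2 μ) :
    Integrable (fun x => g x * conj (h x)) μ :=
  hg.integrable_mul hh.star

theorem integrable_conj_mul {g h : X → ℂ} (hg : MemLp g 2 μ) (hh : MemLp h 2 μ) :
    Integrable (fun x => conj (g x) * h x) μ :=
  hg.star.integrable_mul hh

/-- From one-sided completeness: `f` is orthogonal to every function of the form `h ∘ T`. -/
theorem orth_range [IsProbabilityMeasure μ] (T : X → X) (hT : MeasurePreserving T μ μ)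
    (f : X → ℂ) (hf : MemLp f 2 μ) (h0 : ∫ x, f x ∂μ = 0)
    (horth : ∀ n : ℕ, ∫ x, f x * conj (f (T^[n + 1] x)) ∂μ = 0)
    (hcomp : ∀ g : X → ℂ, MemLp g 2 μ → ∫ x, g x ∂μ = 0 →
      (∀ n : ℕ, ∫ x, g x * conj (f (T^[n] x)) ∂μ = 0) → g =ᵐ[μ] 0)
    (h : X → ℂ) (hh : MemLp h 2 μ) : ∫ x, conj (f x) * h (T x) ∂μ = 0 := by
  have hfn : ∀ n : ℕ, MemLp (f ∘ T^[n]) 2 μ := fun n => hf.comp_measurePreserving (hT.iterate n)
  have hone : MemLp (fun _ : X => (1 : ℂ)) 2 μ := memLp_const 1
  -- the span of the constants and the forward orbit of `f` is dense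
  have hK : (Submodule.span ℂ (insert (hone.toLp _)
      (Set.range fun n : ℕ => (hfn n).toLp _))).topologicalClosure = ⊤ := by
    rw [Submodule.topologicalClosure_eq_top_iff, Submodule.eq_bot_iff]
    intro g hg
    have h1 : inner ℂ (hone.toLp _) g = 0 :=
      Submodule.inner_right_of_mem_orthogonal (Submodule.subset_span (Set.mem_insert _ _)) hg
    have h2 : ∀ n : ℕ, inner ℂ ((hfn n).toLp _) g = 0 := fun n =>
      Submodule.inner_right_of_mem_orthogonal
        (Submodule.subset_span (Set.mem_insert_of_mem _ (Set.mem_range_self n))) hg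
    have hgg : (Lp.memLp g).toLp g = g := Lp.toLp_coeFn g (Lp.memLp g)
    rw [← hgg, inner_toLp] at h1
    have h2' : ∀ n : ℕ, ∫ x, (g : X → ℂ) x * conj (f (T^[n] x)) ∂μ = 0 := by
      intro n
      have := h2 n
      rw [← hgg, inner_toLp] at this
      rw [← this]
      apply integral_congr_ae
      filter_upwards with x
      simp [mul_comm]
    have h1' : ∫ x, (g : X → ℂ) x ∂μ = 0 := by
      rw [← h1]
      apply integral_congr_ae
      filter_upwards with x
      simp
    have := hcomp g (Lp.memLp g) h1' h2'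
    exact (Lp.eq_zero_iff_ae_eq_zero).2 this
  -- the functional `h ↦ ⟪f, h ∘ T⟫`
  obtain ⟨φ, hφ⟩ : ∃ φ : Lp ℂ 2 μ →L[ℂ] ℂ, φ = (innerSL ℂ ((hfn 0).toLp _)).comp
      (Lp.compMeasurePreservingₗᵢ ℂ T hT).toContinuousLinearMap := ⟨_, rfl⟩
  have hφ_apply : ∀ (k : X → ℂ) (hk : MemLp k 2 μ),
      φ (hk.toLp k) = ∫ x, conj (f x) * k (T x) ∂μ := by
    intro k hk
    rw [hφ]
    show inner ℂ ((hfn 0).toLp _) ((hk.comp_measurePreserving hT).toLp (k ∘ T)) = _
    rw [inner_toLp]
    rfl
  have hker : Submodule.span ℂ (insert (hone.toLp _)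
      (Set.range fun n : ℕ => (hfn n).toLp _)) ≤ LinearMap.ker φ.toLinearMap := by
    rw [Submodule.span_le]
    rintro _ (rfl | ⟨n, rfl⟩)
    · show φ (hone.toLp _) = 0
      rw [hφ_apply]
      have : ∫ x, conj (f x) * (1 : ℂ) ∂μ = conj (∫ x, f x ∂μ) := by
        rw [← integral_conj]
        simp
      rw [this, h0, map_zero]
    · show φ ((hfn n).toLp _) = 0
      rw [hφ_apply]
      have : ∫ x, conj (f x) * (f ∘ T^[n]) (T x) ∂μ
          = conj (∫ x, f x * conj (f (T^[n + 1] x)) ∂μ) := by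
        rw [← integral_conj]
        apply integral_congr_ae
        filter_upwards with x
        simp [Function.iterate_succ_apply]
      rw [this, horth n, map_zero]
  have hall : ∀ k : Lp ℂ 2 μ, φ k = 0 := by
    intro k
    have hmem : k ∈ (Submodule.span ℂ (insert (hone.toLp _)
        (Set.range fun n : ℕ => (hfn n).toLp _))).topologicalClosure := by
      rw [hK]; exact Submodule.mem_top
    exact Submodule.topologicalClosure_minimal _ hker φ.isClosed_ker hmem
  rw [← hφ_apply h hh]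
  exact hall _

end Vale.Agent.Lib.P130
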