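import Vale.Agent.Lib.P130.Koopman

namespace Vale.Agent.Lib.P130

open MeasureTheory Filter Topology ComplexConjugate
open scoped ENNReal

variable {X : Type*} [MeasurableSpace X] {μ : Measure X}

/-- Under the one-sided basis hypotheses, the measure `D ↦ ∫_{T⁻¹ D} |f|²` takes only the
values `0` and `1`. -/
theorem setIntegral_zero_or_one [IsProbabilityMeasure μ] (T : X → X)
    (hT : MeasurePreserving T μ μ) (f : X → ℂ) (hf : MemLp f 2 μ) (h0 : ∫ x, f x ∂μ = 0)
    (horth : ∀ m n : ℕ,
      ∫ x, f (T^[m] x) * conj (f (T^[n] x)) ∂μ = if m = n then 1 else 0)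
    (hcomp : ∀ g : X → ℂ, MemLp g 2 μ → ∫ x, g x ∂μ = 0 →
      (∀ n : ℕ, ∫ x, g x * conj (f (T^[n] x)) ∂μ = 0) → g =ᵐ[μ] 0)
    (D : Set X) (hD : MeasurableSet D) :
    ∫ x in T ⁻¹' D, ‖f x‖ ^ 2 ∂μ = 0 ∨ ∫ x in T ⁻¹' D, ‖f x‖ ^ 2 ∂μ = 1 := by
  have hA : MeasurableSet (T ⁻¹' D) := hT.measurable hD
  have hfn : ∀ n : ℕ, MemLp (f ∘ T^[n]) 2 μ := fun n => hf.comp_measurePreserving (hT.iterate n)
  have horth0 : ∀ n : ℕ, ∫ x, f x * conj (f (T^[n + 1] x)) ∂μ = 0 := by
    intro n
    have := horth 0 (n + 1)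
    simpa using this
  have hnorm : ∫ x, f x * conj (f x) ∂μ = 1 := by
    have := horth 0 0
    simpa using this
  have hP := orth_range T hT f hf h0 horth0 hcomp
  obtain ⟨lam, hlam_def⟩ : ∃ lam : ℝ, lam = ∫ x in T ⁻¹' D, ‖f x‖ ^ 2 ∂μ := ⟨_, rfl⟩
  rw [← hlam_def]
  have hlam : ∫ x, (T ⁻¹' D).indicator f x * conj (f x) ∂μ = (lam : ℂ) := by
    have hpt : ∀ x, (T ⁻¹' D).indicator f x * conj (f x)
        = (T ⁻¹' D).indicator (fun x => ((‖f x‖ ^ 2 : ℝ) : ℂ)) x := by
      intro x
      by_cases hx : x ∈ T ⁻¹' D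
      · rw [Set.indicator_of_mem hx, Set.indicator_of_mem hx, Complex.mul_conj,
          Complex.normSq_eq_norm_sq]
      · rw [Set.indicator_of_notMem hx, Set.indicator_of_notMem hx, zero_mul]
    simp_rw [hpt]
    rw [integral_indicator hA, integral_complex_ofReal, hlam_def]
  -- the function `g = 1_{T⁻¹ D} f - lam f`
  have hg : MemLp (fun x => (T ⁻¹' D).indicator f x - (lam : ℂ) * f x) 2 μ :=
    (hf.indicator hA).sub (hf.const_mul (lam : ℂ))
  have hfi : Integrable f μ := hf.integrable one_le_two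
  have hg0 : ∫ x, ((T ⁻¹' D).indicator f x - (lam : ℂ) * f x) ∂μ = 0 := by
    rw [integral_sub (hfi.indicator hA) (hfi.const_mul _), integral_const_mul, h0, mul_zero,
      sub_zero]
    have h1 := hP (D.indicator fun _ => (1 : ℂ)) ((memLp_const 1).indicator hD)
    have h2 : ∫ x, conj (f x) * (D.indicator fun _ => (1 : ℂ)) (T x) ∂μ
        = conj (∫ x, (T ⁻¹' D).indicator f x ∂μ) := by
      rw [← integral_conj]
      apply integral_congr_ae
      filter_upwards with x
      by_cases hx : T x ∈ D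
      · have hx' : x ∈ T ⁻¹' D := hx
        rw [Set.indicator_of_mem hx, Set.indicator_of_mem hx', mul_one]
      · have hx' : x ∉ T ⁻¹' D := hx
        rw [Set.indicator_of_notMem hx, Set.indicator_of_notMem hx', mul_zero, map_zero]
    rw [h2] at h1
    simpa using h1
  have hgn : ∀ n : ℕ,
      ∫ x, ((T ⁻¹' D).indicator f x - (lam : ℂ) * f x) * conj (f (T^[n] x)) ∂μ = 0 := by
    intro n
    have hsplit : ∀ x, ((T ⁻¹' D).indicator f x - (lam : ℂ) * f x) * conj (f (T^[n] x))
        = (T ⁻¹' D).indicator f x * conj (f (T^[n] x))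
          - (lam : ℂ) * (f x * conj (f (T^[n] x))) := fun x => by ring
    simp_rw [hsplit]
    have i1 : Integrable (fun x => (T ⁻¹' D).indicator f x * conj (f (T^[n] x))) μ :=
      integrable_mul_conj (hf.indicator hA) (hfn n)
    have i2 : Integrable (fun x => f x * conj (f (T^[n] x))) μ :=
      integrable_mul_conj hf (hfn n)
    rw [integral_sub i1 (i2.const_mul _), integral_const_mul]
    cases n with
    | zero =>
      simp only [Function.iterate_zero, id_eq]
      rw [hlam, hnorm, mul_one, sub_self]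
    | succ n =>
      rw [horth0 n, mul_zero, sub_zero]
      have h1 := hP (D.indicator (f ∘ T^[n])) ((hfn n).indicator hD)
      have h2 : ∫ x, conj (f x) * (D.indicator (f ∘ T^[n])) (T x) ∂μ
          = conj (∫ x, (T ⁻¹' D).indicator f x * conj (f (T^[n + 1] x)) ∂μ) := by
        rw [← integral_conj]
        apply integral_congr_ae
        filter_upwards with x
        by_cases hx : T x ∈ D
        · have hx' : x ∈ T ⁻¹' D := hx
          rw [Set.indicator_of_mem hx, Set.indicator_of_mem hx']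
          simp [Function.iterate_succ_apply]
        · have hx' : x ∉ T ⁻¹' D := hx
          rw [Set.indicator_of_notMem hx, Set.indicator_of_notMem hx']
          simp
      rw [h2] at h1
      simpa using h1
  have hae := hcomp _ hg hg0 hgn
  by_cases h1 : lam = 1
  · exact Or.inr h1
  · left
    have hz : ∀ᵐ x ∂μ, x ∈ T ⁻¹' D → ‖f x‖ ^ 2 = (0 : ℝ) := by
      filter_upwards [hae] with x hx hxA
      simp only [Pi.zero_apply, Set.indicator_of_mem hxA] at hx
      have h3 : (1 - (lam : ℂ)) * f x = 0 := by linear_combination hx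
      rcases mul_eq_zero.1 h3 with h | h
      · exfalso
        apply h1
        have : (lam : ℂ) = 1 := by linear_combination -h
        exact_mod_cast this
      · simp [h]
    rw [hlam_def]
    exact setIntegral_eq_zero_of_ae_eq_zero hz

end Vale.Agent.Lib.P130

namespace Vale.Agent.Lib.P130

open MeasureTheory Filter Topology ComplexConjugate
open scoped ENNReal

variable {X : Type*} [MeasurableSpace X] {μ : Measure X}

/-- There is no one-sided orthonormal basis `{f ∘ Tⁿ : n ≥ 0}` of `L²₀` on an atomless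
probability space. -/
theorem no_one_sided_basis [IsProbabilityMeasure μ] (hμ : Atomless μ) (T : X → X)
    (hT : MeasurePreserving T μ μ) (f : X → ℂ) (hf : MemLp f 2 μ) (h0 : ∫ x, f x ∂μ = 0)
    (horth : ∀ m n : ℕ,
      ∫ x, f (T^[m] x) * conj (f (T^[n] x)) ∂μ = if m = n then 1 else 0)
    (hcomp : ∀ g : X → ℂ, MemLp g 2 μ → ∫ x, g x ∂μ = 0 →
      (∀ n : ℕ, ∫ x, g x * conj (f (T^[n] x)) ∂μ = 0) → g =ᵐ[μ] 0) : False := by
  have h01 := setIntegral_zero_or_one T hT f hf h0 horth hcomp
  obtain ⟨ν, hν⟩ : ∃ ν : Measure X,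
      ν = Measure.map T (μ.withDensity fun x => ENNReal.ofReal (‖f x‖ ^ 2)) := ⟨_, rfl⟩
  have hint : Integrable (fun x => ‖f x‖ ^ 2) μ := (memLp_two_iff_integrable_sq_norm hf.1).1 hf
  have hνapply : ∀ D : Set X, MeasurableSet D →
      ν D = ENNReal.ofReal (∫ x in T ⁻¹' D, ‖f x‖ ^ 2 ∂μ) := by
    intro D hD
    rw [hν, Measure.map_apply hT.measurable hD, withDensity_apply _ (hT.measurable hD),
      ofReal_integral_eq_lintegral_ofReal hint.integrableOn
        (Eventually.of_forall fun x => by positivity)]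
  have hnorm1 : ∫ x, ‖f x‖ ^ 2 ∂μ = 1 := by
    have h1 := horth 0 0
    simp only [Function.iterate_zero, id_eq, if_true] at h1
    have h2 : ∫ x, f x * conj (f x) ∂μ = ((∫ x, ‖f x‖ ^ 2 ∂μ : ℝ) : ℂ) := by
      rw [← integral_complex_ofReal]
      apply integral_congr_ae
      filter_upwards with x
      rw [Complex.mul_conj, Complex.normSq_eq_norm_sq]
    rw [h2] at h1
    exact_mod_cast h1
  have hνuniv : ν Set.univ = 1 := by
    rw [hνapply _ MeasurableSet.univ, Set.preimage_univ, Measure.restrict_univ, hnorm1,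
      ENNReal.ofReal_one]
  have : IsFiniteMeasure ν := ⟨by rw [hνuniv]; exact ENNReal.one_lt_top⟩
  have hac : ν ≪ μ := by
    refine Measure.AbsolutelyContinuous.mk fun s hs hμs => ?_
    rw [hνapply s hs]
    have : μ (T ⁻¹' s) = 0 := by
      rw [hT.measure_preimage hs.nullMeasurableSet]; exact hμs
    rw [Measure.restrict_eq_zero.2 this]
    simp
  refine no_two_valued hμ hac (by rw [hνuniv]; exact one_ne_zero) (fun D hD => ?_)
  rw [hνapply D hD, hνuniv]
  rcases h01 D hD with h | h
  · left; rw [h]; simp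
  · right; rw [h]; simp

end Vale.Agent.Lib.P130
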